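import Vale.Agent.P097.H315.Pick

/-!
# P097 / case [c] / (A5) block T, row SEL: depth, windows, oscillation

`hgt w` = height of the base domain (union of the two-sided cones of slope `K1` with vertices at the
labels of `A`) over the complex label `w`, `dep z` = depth below it.  Windows `Zs` = points with a
REAL label at distance `≤ dep / K2` of `A`.  `Ez` = oscillation of the line on the ball of radius
`kap * dep`.
-/

set_option linter.all false

open Complex Metric Filter Topology Set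
open Vale.Agent.P097.H315

namespace Vale.Agent.P097.H82.Sel

/-- height of the base domain over the label `w` -/
noncomputable def hgt (A : Set ℝ) (R c : ℝ → ℝ) (K1 : ℝ) (w : ℂ) : ℝ :=
  sSup ((fun u : ℝ => R u + c u * (w.re - u) - K1 * ‖w - u‖) '' A)

/-- depth -/
noncomputable def dep (A : Set ℝ) (R c : ℝ → ℝ) (K1 : ℝ) (z : ℂ × ℂ) : ℝ :=
  hgt A R c K1 z.2 - z.1.im

/-- geometry of the depth -/
structure DG (A : Set ℝ) (R c : ℝ → ℝ) (K1 T : ℝ) : Prop where
  ne : A.Nonempty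
  bd : BddAbove (R '' A)
  cT : ∀ u ∈ A, |c u| ≤ T
  KT : T ≤ K1
  nat : ∀ u ∈ A, ∀ u' ∈ A, R u' + c u' * (u - u') - K1 * |u - u'| ≤ R u

variable {A : Set ℝ} {R c : ℝ → ℝ} {K1 T : ℝ}

theorem DG.T0 (h : DG A R c K1 T) : 0 ≤ T := by
  obtain ⟨u, hu⟩ := h.ne
  exact (abs_nonneg _).trans (h.cT u hu)

theorem DG.K0 (h : DG A R c K1 T) : 0 ≤ K1 := h.T0.trans h.KT

theorem re_le_norm (w : ℂ) (u : ℝ) : |w.re - u| ≤ ‖w - u‖ := by
  have := Complex.abs_re_le_norm (w - u)
  simpa using this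

theorem DG.term_le (h : DG A R c K1 T) {u : ℝ} (hu : u ∈ A) (w : ℂ) :
    R u + c u * (w.re - u) - K1 * ‖w - u‖ ≤ R u := by
  have h1 : c u * (w.re - u) ≤ |c u| * |w.re - u| := by
    rw [← abs_mul]; exact le_abs_self _
  have h2 : |c u| * |w.re - u| ≤ K1 * ‖w - u‖ :=
    mul_le_mul ((h.cT u hu).trans h.KT) (re_le_norm w u) (abs_nonneg _) h.K0
  linarith

theorem DG.bdd (h : DG A R c K1 T) (w : ℂ) :
    BddAbove ((fun u : ℝ => R u + c u * (w.re - u) - K1 * ‖w - u‖) '' A) := by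
  obtain ⟨M, hM⟩ := h.bd
  refine ⟨M, ?_⟩
  rintro _ ⟨u, hu, rfl⟩
  exact (h.term_le hu w).trans (hM ⟨u, hu, rfl⟩)

theorem DG.le_hgt (h : DG A R c K1 T) {u : ℝ} (hu : u ∈ A) (w : ℂ) :
    R u + c u * (w.re - u) - K1 * ‖w - u‖ ≤ hgt A R c K1 w :=
  le_csSup (h.bdd w) ⟨u, hu, rfl⟩

theorem DG.hgt_le (h : DG A R c K1 T) {w : ℂ} {x : ℝ}
    (hx : ∀ u ∈ A, R u + c u * (w.re - u) - K1 * ‖w - u‖ ≤ x) : hgt A R c K1 w ≤ x := by
  refine csSup_le (h.ne.image _) ?_
  rintro _ ⟨u, hu, rfl⟩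
  exact hx u hu

/-- some label almost realises the height -/
theorem DG.exists_lt (h : DG A R c K1 T) {w : ℂ} {x : ℝ} (hx : x < hgt A R c K1 w) :
    ∃ u ∈ A, x < R u + c u * (w.re - u) - K1 * ‖w - u‖ := by
  obtain ⟨_, ⟨u, hu, rfl⟩, h1⟩ := exists_lt_of_lt_csSup (h.ne.image _) hx
  exact ⟨u, hu, h1⟩

theorem DG.hgt_at (h : DG A R c K1 T) {u : ℝ} (hu : u ∈ A) : hgt A R c K1 (u : ℂ) = R u := by
  refine le_antisymm (h.hgt_le fun u' hu' => ?_) ?_
  · have h1 := h.nat u hu u' hu'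
    have h2 : ‖(u : ℂ) - u'‖ = |u - u'| := by
      rw [← Complex.ofReal_sub, Complex.norm_real, Real.norm_eq_abs]
    rw [h2, Complex.ofReal_re]
    exact h1
  · have := h.le_hgt hu (u : ℂ)
    simpa using this

/-- the height is Lipschitz -/
theorem DG.hgt_lip (h : DG A R c K1 T) (w w' : ℂ) :
    |hgt A R c K1 w - hgt A R c K1 w'| ≤ (T + K1) * ‖w - w'‖ := by
  have key : ∀ w w' : ℂ, hgt A R c K1 w - hgt A R c K1 w' ≤ (T + K1) * ‖w - w'‖ := by
    intro w w'
    rw [sub_le_iff_le_add]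
    refine h.hgt_le fun u hu => ?_
    have h1 := h.le_hgt hu w'
    have h2 : c u * (w.re - u) ≤ c u * (w'.re - u) + T * ‖w - w'‖ := by
      have e : c u * (w.re - u) = c u * (w'.re - u) + c u * (w.re - w'.re) := by ring
      have h3 : c u * (w.re - w'.re) ≤ |c u| * |w.re - w'.re| := by
        rw [← abs_mul]; exact le_abs_self _
      have h4 : |w.re - w'.re| ≤ ‖w - w'‖ := by
        have := Complex.abs_re_le_norm (w - w')
        simpa using this
      have h5 : |c u| * |w.re - w'.re| ≤ T * ‖w - w'‖ :=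
        mul_le_mul (h.cT u hu) h4 (abs_nonneg _) h.T0
      linarith
    have h3 : K1 * ‖w' - u‖ ≤ K1 * ‖w - u‖ + K1 * ‖w - w'‖ := by
      rw [← mul_add]
      refine mul_le_mul_of_nonneg_left ?_ h.K0
      have := norm_sub_le (w - u) (w - w')
      have e : (w - u) - (w - w') = w' - u := by ring
      rwa [e] at this
    linarith
  rw [abs_sub_le_iff]
  refine ⟨key w w', ?_⟩
  have := key w' w
  rwa [norm_sub_rev] at this

/-- **the depth is Lipschitz** -/
theorem DG.dep_lip (h : DG A R c K1 T) (z z' : ℂ × ℂ) :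
    |dep A R c K1 z - dep A R c K1 z'| ≤ (T + K1 + 1) * ‖z - z'‖ := by
  have h1 := h.hgt_lip z.2 z'.2
  have h2 : |z.1.im - z'.1.im| ≤ ‖z.1 - z'.1‖ := by
    have := Complex.abs_im_le_norm (z.1 - z'.1)
    simpa using this
  have h3 : ‖z.1 - z'.1‖ ≤ ‖z - z'‖ := norm_fst_le (z - z')
  have h4 : ‖z.2 - z'.2‖ ≤ ‖z - z'‖ := norm_snd_le (z - z')
  have h5 : 0 ≤ T + K1 := add_nonneg h.T0 h.K0
  have h6 : (T + K1) * ‖z.2 - z'.2‖ ≤ (T + K1) * ‖z - z'‖ := mul_le_mul_of_nonneg_left h4 h5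
  have e : dep A R c K1 z - dep A R c K1 z' =
      (hgt A R c K1 z.2 - hgt A R c K1 z'.2) - (z.1.im - z'.1.im) := by
    unfold dep; ring
  rw [e]
  refine (abs_sub _ _).trans ?_
  linarith

theorem DG.cont_dep (h : DG A R c K1 T) : Continuous (dep A R c K1) := by
  have hL : 0 ≤ T + K1 + 1 := by linarith [h.T0, h.K0]
  refine (LipschitzWith.of_dist_le_mul (K := ⟨T + K1 + 1, hL⟩) fun z z' => ?_).continuous
  rw [Real.dist_eq, dist_eq_norm]
  exact h.dep_lip z z'

theorem DG.cont_hgt (h : DG A R c K1 T) : Continuous (hgt A R c K1) := by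
  have hL : 0 ≤ T + K1 := add_nonneg h.T0 h.K0
  refine (LipschitzWith.of_dist_le_mul (K := ⟨T + K1, hL⟩) fun z z' => ?_).continuous
  rw [Real.dist_eq, dist_eq_norm]
  exact h.hgt_lip z z'

/-- points of a ball of radius `r * dep / L1` have comparable depth -/
theorem DG.dep_ball (h : DG A R c K1 T) {z z' : ℂ × ℂ} {r : ℝ}
    (hz : (T + K1 + 1) * ‖z' - z‖ ≤ r) :
    dep A R c K1 z - r ≤ dep A R c K1 z' ∧ dep A R c K1 z' ≤ dep A R c K1 z + r := by
  have h1 := abs_le.1 (h.dep_lip z' z)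
  constructor <;> linarith [h1.1, h1.2]

/-- moving down by `s` increases the depth by `s` -/
theorem dep_down (z : ℂ × ℂ) (s : ℝ) :
    dep A R c K1 (z.1 - (s : ℂ) * I, z.2) = dep A R c K1 z + s := by
  unfold dep
  simp
  ring

/-- horizontal motions do not change the depth -/
theorem dep_horiz (z : ℂ × ℂ) (x : ℝ) :
    dep A R c K1 (z.1 + (x : ℂ), z.2) = dep A R c K1 z := by
  unfold dep
  simp

/-- the depth over a label of `A` -/
theorem DG.dep_at (h : DG A R c K1 T) {u : ℝ} (hu : u ∈ A) (y s : ℝ) :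
    dep A R c K1 ((y : ℂ) + ((R u - s : ℝ) : ℂ) * I, (u : ℂ)) = s := by
  unfold dep
  simp only
  rw [h.hgt_at hu]
  simp

/-- **windows** -/
def Zs (A : Set ℝ) (R c : ℝ → ℝ) (K1 K2 u₀ d rm : ℝ) : Set (ℂ × ℂ) :=
  {z | z.2.im = 0 ∧ |z.2.re - u₀| < d ∧ 0 < dep A R c K1 z ∧ dep A R c K1 z < rm ∧
    K2 * infDist z.2.re A ≤ dep A R c K1 z}

/-- the windows with their distance -/
noncomputable def win (A : Set ℝ) (R c : ℝ → ℝ) (K1 K2 u₀ d rm : ℝ) :
    Pick.Win (Zs A R c K1 K2 u₀ d rm) :=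
  Pick.Win.std (fun z => dep A R c K1 z.1) fun z => z.2.2.2.1

theorem win_ρ {K2 u₀ d rm : ℝ} (z : Zs A R c K1 K2 u₀ d rm) :
    (win A R c K1 K2 u₀ d rm).ρ z = dep A R c K1 z.1 := rfl

theorem win_D {K2 u₀ d rm : ℝ} (z z' : Zs A R c K1 K2 u₀ d rm) :
    (win A R c K1 K2 u₀ d rm).D z z' = ‖z.1 - z'.1‖ + dep A R c K1 z.1 + dep A R c K1 z'.1 := by
  show dist z z' + _ + _ = _
  rw [Subtype.dist_eq, dist_eq_norm]

/-- hypothesis `hv` of the pick row -/
theorem win_v {K2 u₀ d rm : ℝ} (z z' : Zs A R c K1 K2 u₀ d rm) :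
    |z.1.2.re - z'.1.2.re| + (win A R c K1 K2 u₀ d rm).ρ z + (win A R c K1 K2 u₀ d rm).ρ z' ≤
      (win A R c K1 K2 u₀ d rm).D z z' := by
  rw [win_ρ, win_ρ, win_D]
  have h1 : |z.1.2.re - z'.1.2.re| ≤ ‖z.1.2 - z'.1.2‖ := by
    have := Complex.abs_re_le_norm (z.1.2 - z'.1.2)
    simpa using this
  have h2 : ‖z.1.2 - z'.1.2‖ ≤ ‖z.1 - z'.1‖ := norm_snd_le (z.1 - z'.1)
  linarith

/-- **size of a window** -/
noncomputable def Ez (A : Set ℝ) (R c : ℝ → ℝ) (K1 kap : ℝ) (L : ℂ × ℂ → ℂ × ℂ) (z : ℂ × ℂ) : ℝ :=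
  min 1 (diam (L '' closedBall z (kap * dep A R c K1 z)))

variable {kap : ℝ} {L : ℂ × ℂ → ℂ × ℂ}

theorem Ez_nonneg (z : ℂ × ℂ) : 0 ≤ Ez A R c K1 kap L z := le_min zero_le_one diam_nonneg

theorem Ez_le_one (z : ℂ × ℂ) : Ez A R c K1 kap L z ≤ 1 := min_le_left _ _

/-- `Ez < 1`: honest oscillation bound -/
theorem osc_le {z : ℂ × ℂ} (hL : ContinuousOn L (closedBall z (kap * dep A R c K1 z))) {s : ℝ}
    (hs : s < 1) (hE : Ez A R c K1 kap L z ≤ s) {x y : ℂ × ℂ}
    (hx : x ∈ closedBall z (kap * dep A R c K1 z)) (hy : y ∈ closedBall z (kap * dep A R c K1 z)) :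
    ‖L x - L y‖ ≤ s := by
  have h1 : diam (L '' closedBall z (kap * dep A R c K1 z)) ≤ s := by
    rcases min_le_iff.1 hE with h | h
    · linarith
    · exact h
  have hb : Bornology.IsBounded (L '' closedBall z (kap * dep A R c K1 z)) :=
    ((isCompact_closedBall _ _).image_of_continuousOn hL).isBounded
  rw [← dist_eq_norm]
  exact (dist_le_diam_of_mem hb ⟨x, hx, rfl⟩ ⟨y, hy, rfl⟩).trans h1

/-- truncated oscillation bound, always true -/
theorem min_osc_le {z : ℂ × ℂ} (hL : ContinuousOn L (closedBall z (kap * dep A R c K1 z)))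
    {x y : ℂ × ℂ} (hx : x ∈ closedBall z (kap * dep A R c K1 z))
    (hy : y ∈ closedBall z (kap * dep A R c K1 z)) : min 1 ‖L x - L y‖ ≤ Ez A R c K1 kap L z := by
  have hb : Bornology.IsBounded (L '' closedBall z (kap * dep A R c K1 z)) :=
    ((isCompact_closedBall _ _).image_of_continuousOn hL).isBounded
  have := dist_le_diam_of_mem hb (mem_image_of_mem L hx) (mem_image_of_mem L hy)
  rw [dist_eq_norm] at this
  exact min_le_min le_rfl this

/-- **piece lemma**: a segment of windows -/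
theorem seg_osc {z z' : ℂ × ℂ} {δ s : ℝ} (hδ : 0 < δ) (hk : 0 < kap) (hs0 : 0 ≤ s) (hs : s < 1)
    (hd : ∀ x ∈ segment ℝ z z', δ ≤ dep A R c K1 x)
    (hL : ∀ x ∈ segment ℝ z z', ContinuousOn L (closedBall x (kap * dep A R c K1 x)))
    (hE : ∀ x ∈ segment ℝ z z', Ez A R c K1 kap L x ≤ s) :
    ‖L z' - L z‖ ≤ (‖z' - z‖ / (kap * δ) + 1) * s := by
  have hkd : 0 < kap * δ := by positivity
  set n : ℕ := ⌈‖z' - z‖ / (kap * δ)⌉₊ with hn
  have hn1 : ‖z' - z‖ / (kap * δ) ≤ n := Nat.le_ceil _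
  have hn2 : (n : ℝ) < ‖z' - z‖ / (kap * δ) + 1 := Nat.ceil_lt_add_one (by positivity)
  rcases Nat.eq_zero_or_pos n with h0 | h0
  · have h1 : ‖z' - z‖ / (kap * δ) ≤ 0 := by rw [h0] at hn1; simpa using hn1
    have h2 : ‖z' - z‖ = 0 := by
      refine le_antisymm ?_ (norm_nonneg _)
      by_contra hc
      push Not at hc
      have : 0 < ‖z' - z‖ / (kap * δ) := by positivity
      linarith
    have h3 : z' = z := sub_eq_zero.1 (norm_eq_zero.1 h2)
    rw [h3]
    simp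
    exact hs0
  · have hn0 : (0 : ℝ) < n := by exact_mod_cast h0
    set f : ℕ → ℂ × ℂ := fun i => z + ((i : ℝ) / n) • (z' - z) with hf
    have hfs : ∀ i ≤ n, f i ∈ segment ℝ z z' := by
      intro i hi
      rw [segment_eq_image']
      refine ⟨(i : ℝ) / n, ⟨by positivity, ?_⟩, rfl⟩
      rw [div_le_one hn0]
      exact_mod_cast hi
    have hstep : ∀ i < n, ‖L (f (i + 1)) - L (f i)‖ ≤ s := by
      intro i hi
      have h1 := hfs i hi.le
      have h2 : f (i + 1) - f i = (1 / (n : ℝ)) • (z' - z) := by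
        simp only [hf]
        rw [add_sub_add_left_eq_sub, ← sub_smul]
        congr 1
        push_cast
        ring
      have h3 : ‖f (i + 1) - f i‖ ≤ kap * dep A R c K1 (f i) := by
        rw [h2, norm_smul, Real.norm_of_nonneg (by positivity)]
        have h4 : ‖z' - z‖ ≤ n * (kap * δ) := by
          rwa [div_le_iff₀ hkd] at hn1
        calc 1 / (n : ℝ) * ‖z' - z‖ ≤ 1 / (n : ℝ) * (n * (kap * δ)) := by gcongr
          _ = kap * δ := by field_simp
          _ ≤ _ := mul_le_mul_of_nonneg_left (hd _ h1) hk.le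
      have h5 : (0 : ℝ) ≤ kap * dep A R c K1 (f i) := (norm_nonneg _).trans h3
      refine osc_le (hL _ h1) hs (hE _ h1) ?_ (mem_closedBall_self h5)
      rwa [mem_closedBall, dist_eq_norm]
    have hsum : ∀ m ≤ n, ‖L (f m) - L (f 0)‖ ≤ m * s := by
      intro m
      induction m with
      | zero => intro _; simp
      | succ m ih =>
        intro hm
        have h1 := ih (by omega)
        have h2 := hstep m (by omega)
        calc ‖L (f (m + 1)) - L (f 0)‖ = ‖(L (f (m + 1)) - L (f m)) + (L (f m) - L (f 0))‖ := by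
              congr 1; abel
          _ ≤ s + m * s := (norm_add_le _ _).trans (add_le_add h2 h1)
          _ = ((m + 1 : ℕ) : ℝ) * s := by push_cast; ring
    have h1 := hsum n le_rfl
    have e1 : f n = z' := by
      simp only [hf]
      rw [div_self hn0.ne', one_smul]
      abel
    have e0 : f 0 = z := by simp [hf]
    rw [e1, e0] at h1
    exact h1.trans (mul_le_mul_of_nonneg_right hn2.le hs0)

end Vale.Agent.P097.H82.Sel
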