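import Vale.Agent.P097.H82.Sel.AncA

/-!
# P097 / case [c] / (A5) block T, row SEL / ANC: main theorem `anc_bg`
-/

set_option linter.all false

open Complex Metric Filter Topology Set
open Vale.Agent.P097.H315

namespace Vale.Agent.P097.H82.Sel

open Vale.Agent.P097.TC Vale.Agent.P097.A5

variable {Λ H : ℝ} {F q : ℂ → ℂ} {A : Set ℝ} {R c : ℝ → ℝ} {K1 T u₀ d rm : ℝ}
  {al p th : ℂ × ℂ → ℂ}

/-- **zone part of ANC** -/
theorem zone_anc (W : NW Λ H F q A R c K1 T u₀ d rm al p th) {K2 kap a C c₁ : ℝ} (hK2 : 0 ≤ K2)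
    (hk : 0 < kap) (hkL : kap * (T + K1 + 1) ≤ 1 / 2) (ha : 0 < a) (hC : 1 ≤ C) (hc : 0 < c₁) :
    ∃ A₀ : ℝ, 1 ≤ A₀ ∧ ∃ C₀ : ℝ, 1 ≤ C₀ ∧ ∀ {pb zs : Zs A R c K1 K2 u₀ d rm} {D : ℝ}
      {g : ℂ × ℂ}, D = (win A R c K1 K2 u₀ d rm).D pb zs → g.2.im = 0 →
      K2 * infDist g.2.re A ≤ dep A R c K1 g → ‖g - pb.1‖ ≤ 2 * C * D →
      2 * D ≤ C * dep A R c K1 g → Gf H F al p th C c₁ g →
      (win A R c K1 K2 u₀ d rm).Near a
        (fun z => Ez A R c K1 kap (fun z => (al z, p z)) z.1) pb zs →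
      ‖pb.1.2 - u₀‖ + C₀ * D < d → C₀ * D < rm → ∀ s : ℝ, A₀ * dep A R c K1 zs.1 ≤ s → s ≤ D →
      Gf H F al p th (C + 1) (c₁ / 2) (dn zs.1 (s - dep A R c K1 zs.1)) := by
  obtain ⟨ρ₀, hρ₀, hzone⟩ := zoneP W.crv hc C
  have hT0 := W.dg.T0
  have hK0 := W.dg.K0
  have hL1 : 1 ≤ T + K1 + 1 := by linarith only [hT0, hK0]
  obtain ⟨M, hM⟩ : ∃ M, M = (T + K1 + 1) * (2 * C + 1) + 2 * K2 * C + 3 := ⟨_, rfl⟩
  have hM0 : 0 < M := by rw [hM]; positivity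
  have hM3 : 3 ≤ M := by
    have h1 : 0 ≤ (T + K1 + 1) * (2 * C + 1) := by positivity
    have h2 : 0 ≤ 2 * K2 * C := by positivity
    linarith only [hM, h1, h2]
  obtain ⟨M4, hM4⟩ : ∃ M4, M4 = M + 2 * C := ⟨_, rfl⟩
  have hM40 : 0 < M4 := by rw [hM4]; positivity
  obtain ⟨M5, hM5⟩ : ∃ M5, M5 = 1 + (T + K1 + 1) * M4 := ⟨_, rfl⟩
  have hM50 : 0 < M5 := by rw [hM5]; positivity
  obtain ⟨M2, hM2⟩ : ∃ M2, M2 = 2 * (M4 + 1 + M5) ^ (a + 2) := ⟨_, rfl⟩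
  have hM20 : 0 < M2 := by rw [hM2]; positivity
  obtain ⟨N1, hN1⟩ : ∃ N1, N1 = M * C / (2 * kap) + 1 := ⟨_, rfl⟩
  have hN10 : 0 < N1 := by rw [hN1]; positivity
  obtain ⟨N2, hN2⟩ : ∃ N2, N2 = (2 * C + 1) * C / (2 * kap) + 1 := ⟨_, rfl⟩
  have hN20 : 0 < N2 := by rw [hN2]; positivity
  obtain ⟨N3, hN3⟩ : ∃ N3, N3 = 2 * (1 / kap + 1) := ⟨_, rfl⟩
  have hN30 : 0 < N3 := by rw [hN3]; positivity
  obtain ⟨M6, hM6⟩ : ∃ M6, M6 = (N1 + N2) * (M2 * C ^ 2) + N3 * M2 := ⟨_, rfl⟩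
  have hM60 : 0 < M6 := by rw [hM6]; positivity
  obtain ⟨ρ₁, hρ₁0, hρρ, hρ1⟩ : ∃ ρ₁ : ℝ, 0 < ρ₁ ∧ ρ₁ ≤ ρ₀ ∧ ρ₁ ≤ 1 :=
    ⟨min ρ₀ 1, lt_min hρ₀ one_pos, min_le_left _ _, min_le_right _ _⟩
  obtain ⟨A₀, hA₀1, hA1, hA2, hA3⟩ := exists_A hM20 hM60 hC hρ₁0
  have hA₀0 : 0 < A₀ := by linarith only [hA₀1]
  refine ⟨A₀, hA₀1, 2 * (M4 + M5) + 1, by linarith only [hM40, hM50], ?_⟩
  intro pb zs D g hD hg1 hg2 hg3 hg4 hg5 hnear hb1 hb2 s hs1 hs2
  rw [win_D] at hD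
  have hr0 : 0 < dep A R c K1 zs.1 := zs.2.2.2.1
  have hpb0 : 0 < dep A R c K1 pb.1 := pb.2.2.2.1
  have hz1 : zs.1.2.im = 0 := zs.2.1
  have hz2 : K2 * infDist zs.1.2.re A ≤ dep A R c K1 zs.1 := zs.2.2.2.2.2
  have hpbK : K2 * infDist pb.1.2.re A ≤ dep A R c K1 pb.1 := pb.2.2.2.2.2
  have hDn := norm_nonneg (pb.1 - zs.1)
  obtain ⟨r, hr⟩ : ∃ r, r = dep A R c K1 zs.1 := ⟨_, rfl⟩
  rw [← hr] at hs1 ⊢
  have hD0 : 0 < D := by linarith only [hD, hr0, hpb0, hDn]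
  have hpbD : K2 * infDist pb.1.2.re A ≤ D := by linarith only [hD, hr0, hpbK, hDn]
  have hzp : ‖zs.1 - pb.1‖ ≤ D := by
    rw [norm_sub_rev]; linarith only [hD, hr0, hpb0]
  have hrD : r ≤ D := by linarith only [hD, hr, hpb0, hDn]
  have hr0' : 0 < r := by rw [hr]; exact hr0
  have hsD : A₀ * r ≤ D := hs1.trans hs2
  have hb1' : ‖pb.1.2 - u₀‖ + (2 * (M4 + M5)) * D < d := by
    have : (2 * (M4 + M5) + 1) * D = (2 * (M4 + M5)) * D + D := by ring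
    linarith only [hb1, this, hD0]
  have hb2' : (2 * (M4 + M5)) * D < rm := by
    have : (2 * (M4 + M5) + 1) * D = (2 * (M4 + M5)) * D + D := by ring
    linarith only [hb2, this, hD0]
  have hin := fun (x : ℂ × ℂ) (hx1 : x.2.im = 0) (hx2 : ‖x - pb.1‖ ≤ M4 * D)
    (hx3 : 0 < dep A R c K1 x) (hx4 : K2 * infDist x.2.re A ≤ dep A R c K1 x) =>
    win_box W hkL ha hM5 hM40 hD hnear hb1' hb2' hx1 hx2 hx3 hx4
  rw [← hM2, ← hr] at hin
  obtain ⟨L, hL⟩ : ∃ L : ℂ × ℂ → ℂ × ℂ, L = fun z => (al z, p z) := ⟨_, rfl⟩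
  have hcont := W.cont
  rw [← hL] at hin hcont
  have hC0 : 0 < C := by linarith only [hC]
  have hgd : 0 < dep A R c K1 g := by
    have : 0 < C * dep A R c K1 g := by linarith only [hg4, hD0]
    exact (mul_pos_iff_of_pos_left hC0).1 this
  have hδ : 2 * D / C ≤ dep A R c K1 g := by
    rw [div_le_iff₀ hC0]; linarith only [hg4]
  have hδ0 : 0 < 2 * D / C := by positivity
  have hδ2 : 2 * D / C ≤ 2 * D := div_le_self (by linarith only [hD0]) hC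
  obtain ⟨σ, hσ⟩ : ∃ σ, σ = M * D := ⟨_, rfl⟩
  have hσ0 : 0 < σ := by rw [hσ]; positivity
  have hσ' : σ = (T + K1 + 1) * ((2 * C + 1) * D) + 2 * K2 * C * D + 3 * D := by
    rw [hσ, hM]; ring
  obtain ⟨σ₀, hσ₀⟩ : ∃ σ₀, σ₀ = s - r := ⟨_, rfl⟩
  rw [← hσ₀]
  have hrs : r ≤ s := by
    have : r ≤ A₀ * r := by nlinarith only [hA₀1, hr0']
    exact this.trans hs1
  have hσ₀0 : 0 ≤ σ₀ := by linarith only [hσ₀, hrs]
  have hDσ : D ≤ σ := by rw [hσ]; nlinarith only [hM3, hD0]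
  have hσ₀σ : σ₀ ≤ σ := by linarith only [hσ₀, hs2, hDσ, hr0']
  have hM4D : M4 * D = σ + 2 * C * D := by rw [hM4, hσ]; ring
  have hM4D' : σ + D ≤ M4 * D := by rw [hM4D]; nlinarith only [hC, hD0]
  -- the three segments
  have S1 : ∀ x ∈ segment ℝ g (dn g σ), x.2.im = 0 ∧ ‖x - pb.1‖ ≤ M4 * D ∧
      2 * D / C ≤ dep A R c K1 x ∧ K2 * infDist x.2.re A ≤ dep A R c K1 x := by
    intro x hx
    rw [hM4D]
    exact seg1 hσ0.le hg1 hg2 hg3 hδ hx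
  have S2 : ∀ x ∈ segment ℝ (dn g σ) (dn zs.1 σ), x.2.im = 0 ∧ ‖x - pb.1‖ ≤ M4 * D ∧
      2 * D / C ≤ dep A R c K1 x ∧ K2 * infDist x.2.re A ≤ dep A R c K1 x := by
    intro x hx
    rw [hM4D]
    obtain ⟨b1, b2, b3, b4⟩ := seg2 W.dg hK2 hC hD0 hσ' hg1 hgd hg3 hz1 hzp hpbD hx
    exact ⟨b1, b2, hδ2.trans b3, b4⟩
  have S3 : ∀ τ ∈ Icc σ₀ σ, (dn zs.1 τ).2.im = 0 ∧ ‖dn zs.1 τ - pb.1‖ ≤ M4 * D ∧
      0 < dep A R c K1 (dn zs.1 τ) ∧
      K2 * infDist (dn zs.1 τ).2.re A ≤ dep A R c K1 (dn zs.1 τ) := by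
    intro τ hτ
    obtain ⟨b1, b2, b3, b4⟩ := seg3 hσ₀0 hz1 hz2 hr0 hzp hτ
    exact ⟨b1, b2.trans hM4D', b3, b4⟩
  -- oscillations
  have O1 : ∀ x ∈ segment ℝ g (dn g σ), ‖L x - L g‖ ≤ N1 * (M2 * C ^ 2 / A₀ ^ 2) := by
    intro x hx
    rw [hN1]
    refine osc_piece (A := A) (R := R) (c := c) (K1 := K1) hk hD0 hC hA₀0 hM20 hA1 hr0' hsD (z := g) (z' := dn g σ) ?_ ?_ hx
    · rw [norm_dn_self, abs_of_nonneg hσ0.le, hσ]
    · intro y hy
      obtain ⟨b1, b2, b3, b4⟩ := S1 y hy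
      obtain ⟨b5, b6⟩ := hin y b1 b2 (hδ0.trans_le b3) b4
      exact ⟨b3, hcont.mono b5, b6⟩
  have O2 : ∀ x ∈ segment ℝ (dn g σ) (dn zs.1 σ),
      ‖L x - L (dn g σ)‖ ≤ N2 * (M2 * C ^ 2 / A₀ ^ 2) := by
    intro x hx
    rw [hN2]
    refine osc_piece (A := A) (R := R) (c := c) (K1 := K1) hk hD0 hC hA₀0 hM20 hA1 hr0' hsD (z := dn g σ) (z' := dn zs.1 σ) ?_ ?_ hx
    · rw [dn_sub]
      have h2 := norm_tri zs.1 pb.1 g
      rw [norm_sub_rev pb.1 g] at h2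
      linarith only [h2, hzp, hg3]
    · intro y hy
      obtain ⟨b1, b2, b3, b4⟩ := S2 y hy
      obtain ⟨b5, b6⟩ := hin y b1 b2 (hδ0.trans_le b3) b4
      exact ⟨b3, hcont.mono b5, b6⟩
  have O3 : ∀ τ ∈ Icc σ₀ σ, ‖L (dn zs.1 τ) - L (dn zs.1 σ)‖ ≤ N3 * (M2 / A₀ ^ 2) := by
    intro τ hτ
    have h0 : 0 < dep A R c K1 zs.1 + τ := by
      have := (S3 τ hτ).2.2.1
      rwa [dep_dn] at this
    have hle : r / (dep A R c K1 zs.1 + τ) ≤ 1 / A₀ := by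
      rw [div_le_div_iff₀ h0 hA₀0, ← hr]
      linarith only [hτ.1, hσ₀, hs1]
    have hge : 0 ≤ r / (dep A R c K1 zs.1 + τ) := div_nonneg hr0'.le h0.le
    have hsq : M2 * (r / (dep A R c K1 zs.1 + τ)) ^ 2 ≤ M2 / A₀ ^ 2 := by
      calc M2 * (r / (dep A R c K1 zs.1 + τ)) ^ 2 ≤ M2 * (1 / A₀) ^ 2 := by gcongr
        _ = _ := by rw [div_pow, one_pow]; ring
    obtain ⟨n, hn⟩ := pow_unbounded_of_one_lt
      ((dep A R c K1 zs.1 + σ) / (dep A R c K1 zs.1 + τ)) (one_lt_two (α := ℝ))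
    have h1 := vert_osc (A := A) (R := R) (c := c) (K1 := K1) (L := L) hk (z := zs.1) (r := r)
      (M := M2) hM20.le n hτ.2 h0 (by
        rw [div_lt_iff₀ h0] at hn; linarith only [hn])
      (fun τ' hτ' => by
        obtain ⟨b1, b2, b3, b4⟩ := S3 τ' ⟨hτ.1.trans hτ'.1, hτ'.2⟩
        exact hcont.mono (hin _ b1 b2 b3 b4).1)
      (fun τ' hτ' => by
        obtain ⟨b1, b2, b3, b4⟩ := S3 τ' ⟨hτ.1.trans hτ'.1, hτ'.2⟩
        have := (hin _ b1 b2 b3 b4).2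
        rwa [dep_dn] at this)
      (lt_of_le_of_lt hsq hA2)
    rw [norm_sub_rev, hN3]
    exact h1.trans (mul_le_mul_of_nonneg_left hsq (by positivity))
  have htot : N1 * (M2 * C ^ 2 / A₀ ^ 2) + N2 * (M2 * C ^ 2 / A₀ ^ 2) + N3 * (M2 / A₀ ^ 2) =
      M6 / A₀ ^ 2 := by
    rw [hM6]
    field_simp
  have hN3p : 0 ≤ N3 * (M2 / A₀ ^ 2) := by positivity
  have hN1p : 0 ≤ N1 * (M2 * C ^ 2 / A₀ ^ 2) := by positivity
  have hN2p : 0 ≤ N2 * (M2 * C ^ 2 / A₀ ^ 2) := by positivity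
  obtain ⟨TT, hTT⟩ : ∃ TT : Set (ℂ × ℂ), TT = (segment ℝ g (dn g σ) ∪
    segment ℝ (dn g σ) (dn zs.1 σ)) ∪ segment ℝ (dn zs.1 σ₀) (dn zs.1 σ) := ⟨_, rfl⟩
  have hTc : IsPreconnected TT := by
    rw [hTT]
    refine IsPreconnected.union (dn zs.1 σ) (Or.inr (right_mem_segment ℝ _ _))
      (right_mem_segment ℝ _ _) ?_ (convex_segment _ _).isPreconnected
    exact IsPreconnected.union (dn g σ) (right_mem_segment ℝ _ _) (left_mem_segment ℝ _ _)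
      (convex_segment _ _).isPreconnected (convex_segment _ _).isPreconnected
  have hgT : g ∈ TT := by rw [hTT]; exact Or.inl (Or.inl (left_mem_segment ℝ _ _))
  have hself : ∀ x : ℂ × ℂ, 0 < dep A R c K1 x → x ∈ closedBall x (kap * dep A R c K1 x) :=
    fun x hx => mem_closedBall_self (by positivity)
  have hall : ∀ x ∈ TT, x ∈ ND A R c K1 u₀ d rm ∧ ‖L x - L g‖ < ρ₁ := by
    intro x hx
    rw [hTT] at hx
    rcases hx with (hx | hx) | hx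
    · obtain ⟨b1, b2, b3, b4⟩ := S1 x hx
      have b0 := hδ0.trans_le b3
      refine ⟨(hin x b1 b2 b0 b4).1 (hself x b0), ?_⟩
      have := O1 x hx
      linarith only [this, htot, hA3, hN2p, hN3p]
    · obtain ⟨b1, b2, b3, b4⟩ := S2 x hx
      have b0 := hδ0.trans_le b3
      refine ⟨(hin x b1 b2 b0 b4).1 (hself x b0), ?_⟩
      have h1 := O2 x hx
      have h2 := O1 _ (right_mem_segment ℝ g (dn g σ))
      have h3 := norm_tri (L x) (L (dn g σ)) (L g)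
      linarith only [h1, h2, h3, htot, hA3, hN3p]
    · obtain ⟨τ, hτ, rfl⟩ := seg_vert hσ₀σ hx
      obtain ⟨b1, b2, b3, b4⟩ := S3 τ hτ
      refine ⟨(hin _ b1 b2 b3 b4).1 (hself _ b3), ?_⟩
      have h1 := O3 τ hτ
      have h2 := O2 _ (right_mem_segment ℝ (dn g σ) (dn zs.1 σ))
      have h3 := O1 _ (right_mem_segment ℝ g (dn g σ))
      have h4 := norm_tri (L (dn zs.1 τ)) (L (dn zs.1 σ)) (L g)
      have h5 := norm_tri (L (dn zs.1 σ)) (L (dn g σ)) (L g)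
      linarith only [h1, h2, h3, h4, h5, htot, hA3]
  have hfst : ∀ x, ‖al x - al g‖ ≤ ‖L x - L g‖ := fun x => by
    rw [hL]; exact norm_fst_le ((al x, p x) - (al g, p g))
  have hsnd : ∀ x, ‖p x - p g‖ ≤ ‖L x - L g‖ := fun x => by
    rw [hL]; exact norm_snd_le ((al x, p x) - (al g, p g))
  have hend : dn zs.1 σ₀ ∈ TT := by rw [hTT]; exact Or.inr (left_mem_segment ℝ _ _)
  obtain ⟨⟨g5, g6, g7⟩, g8⟩ := hg5
  have hz := hzone hTc hgT (W.dth.continuousOn.mono fun x hx => (hall x hx).1) g5 g8 g6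
    (fun x hx => by
      obtain ⟨b1, b2⟩ := hall x hx
      exact ⟨((hfst x).trans_lt b2).trans_le hρρ, ((hsnd x).trans_lt b2).trans_le hρρ,
        W.mem x b1, W.inc x b1⟩) _ hend
  obtain ⟨b1, b2⟩ := hall _ hend
  refine ⟨⟨hz.1, ?_, ?_⟩, hz.2⟩
  · have h1 := Complex.abs_im_le_norm (al (dn zs.1 σ₀) - al g)
    rw [Complex.sub_im] at h1
    have h2 := abs_sub_abs_le_abs_sub (al (dn zs.1 σ₀)).im (al g).im
    have h3 := hfst (dn zs.1 σ₀)
    linarith only [h1, h2, h3, b2, hρ1, g6]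
  · have h1 := norm_sub_norm_le (p (dn zs.1 σ₀)) (p g)
    have h3 := hsnd (dn zs.1 σ₀)
    linarith only [h1, h3, b2, hρ1, g7]

/-- **ANC, first half**: good non R2 windows around the pick at all scales -/
theorem anc_bg (W : NW Λ H F q A R c K1 T u₀ d rm al p th) {K2 kap a C c₁ : ℝ} (hK2 : 0 ≤ K2)
    (hk : 0 < kap) (hkL : kap * (T + K1 + 1) ≤ 1 / 2) (ha : 0 < a) (hC : 1 ≤ C) (hc : 0 < c₁) :
    ∃ C' : ℝ, 1 ≤ C' ∧ ∃ c' : ℝ, 0 < c' ∧ ∀ {pb zs : Zs A R c K1 K2 u₀ d rm} {S : ℝ},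
      BG H F A R c K1 K2 al p th C c₁ (2 * dep A R c K1 pb.1) S pb.1 →
      (win A R c K1 K2 u₀ d rm).Near a
        (fun z => Ez A R c K1 kap (fun z => (al z, p z)) z.1) pb zs →
      ‖pb.1.2 - u₀‖ + C' * S < d → C' * S < rm →
      C' * (win A R c K1 K2 u₀ d rm).D pb zs ≤ S →
      BG H F A R c K1 K2 al p th C' c' (dep A R c K1 zs.1) (S / C') zs.1 := by
  obtain ⟨A₀, hA₀, C₀, hC₀, hZ⟩ := zone_anc W (K2 := K2) hK2 hk hkL ha hC hc
  have hH : 0 < H := W.crv.cv.b0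
  obtain ⟨C', hC'⟩ : ∃ C', C' = C₀ + 2 * (C * A₀) + 2 * A₀ + 2 * C + 2 := ⟨_, rfl⟩
  have hCA : 1 ≤ C * A₀ := by nlinarith only [hC, hA₀]
  have hC'1 : 1 ≤ C' := by linarith only [hC', hCA, hA₀, hC, hC₀]
  have k1 : C₀ ≤ C' := by linarith only [hC', hCA, hA₀, hC, hC₀]
  have k2 : 2 ≤ C' := by linarith only [hC', hCA, hA₀, hC, hC₀]
  have k3 : 2 * C + 1 ≤ C' := by linarith only [hC', hCA, hA₀, hC, hC₀]
  have k4 : (2 * C + 1) * A₀ ≤ C' := by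
    have : (2 * C + 1) * A₀ = 2 * (C * A₀) + A₀ := by ring
    linarith only [hC', hCA, hA₀, hC, hC₀, this]
  have k5 : 2 * C * A₀ ≤ C' := by
    have : 2 * C * A₀ = 2 * (C * A₀) := by ring
    linarith only [hC', hCA, hA₀, hC, hC₀, this]
  have k6 : C + 1 ≤ C' := by linarith only [hC', hCA, hA₀, hC, hC₀]
  have k7 : A₀ ≤ C' := by linarith only [hC', hCA, hA₀, hC, hC₀]
  have k9 : C ≤ C' := by linarith only [k6]
  refine ⟨C', hC'1, c₁ / 2, by positivity, ?_⟩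
  intro pb zs S hBG hnear hb1 hb2 hDS s hs1 hs2
  obtain ⟨D, hD⟩ : ∃ D, D = (win A R c K1 K2 u₀ d rm).D pb zs := ⟨_, rfl⟩
  rw [← hD] at hDS
  have hD' := hD
  rw [win_D] at hD'
  obtain ⟨r, hr⟩ : ∃ r, r = dep A R c K1 zs.1 := ⟨_, rfl⟩
  rw [← hr] at hs1
  have hr0 : 0 < r := by rw [hr]; exact zs.2.2.2.1
  have hpb0 : 0 < dep A R c K1 pb.1 := pb.2.2.2.1
  have hz2 : K2 * infDist zs.1.2.re A ≤ r := by rw [hr]; exact zs.2.2.2.2.2
  have hDn := norm_nonneg (pb.1 - zs.1)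
  have hD0 : 0 < D := by linarith only [hD', hr, hr0, hpb0, hDn]
  have hpD : dep A R c K1 pb.1 ≤ D := by linarith only [hD', hr, hr0, hDn]
  have hC'0 : 0 < C' := by linarith only [hC'1]
  have hS0 : 0 < S := by
    have : 0 < C' * D := by positivity
    linarith only [this, hDS]
  have hDD : C₀ * D ≤ S := by
    have : C₀ * D ≤ C' * D := mul_le_mul_of_nonneg_right k1 hD0.le
    linarith only [this, hDS]
  have h2D : 2 * D ≤ S := by
    have : 2 * D ≤ C' * D := mul_le_mul_of_nonneg_right k2 hD0.le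
    linarith only [this, hDS]
  have hS1 : S ≤ C' * S := by nlinarith only [hC'1, hS0]
  have hzp : ‖zs.1 - pb.1‖ ≤ D := by
    rw [norm_sub_rev]; linarith only [hD', hr, hr0, hpb0]
  have hweak : ∀ g, Gf H F al p th C c₁ g → Gf H F al p th C' (c₁ / 2) g := by
    rintro g ⟨⟨h1, h2, h3⟩, h4⟩
    have : 0 ≤ c₁ / 2 * H := by positivity
    exact ⟨⟨h1.trans (by linarith only [this]), h2.trans k9, h3.trans k9⟩,
      by linarith only [h4, hc]⟩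
  have hweak' : ∀ g, Gf H F al p th (C + 1) (c₁ / 2) g → Gf H F al p th C' (c₁ / 2) g := by
    rintro g ⟨⟨h1, h2, h3⟩, h4⟩
    exact ⟨⟨h1, h2.trans k6, h3.trans k6⟩, h4⟩
  rw [le_div_iff₀ hC'0] at hs2
  have hs0 : 0 < s := by linarith only [hs1, hr0]
  have h2s : 2 * s ≤ S := by
    have : 2 * s ≤ C' * s := mul_le_mul_of_nonneg_right k2 hs0.le
    linarith only [this, hs2]
  rcases le_or_gt D s with hc1 | hc1
  · -- above the distance
    obtain ⟨g, g1, g2, g3, g4, g5, g6⟩ := hBG (2 * s) (by linarith only [hpD, hc1]) h2s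
    refine ⟨g, g1, g2, ?_, ?_, ?_, hweak g g6⟩
    · have h1 := norm_tri g pb.1 zs.1
      rw [norm_sub_rev pb.1 zs.1] at h1
      have h2 : (2 * C + 1) * s ≤ C' * s := mul_le_mul_of_nonneg_right k3 hs0.le
      linarith only [h1, h2, g3, hzp, hc1]
    · have h1 : 0 < C * dep A R c K1 g := by linarith only [g4, hs0]
      have h2 : 0 < dep A R c K1 g := (mul_pos_iff_of_pos_left (by linarith only [hC])).1 h1
      have h3 : C * dep A R c K1 g ≤ C' * dep A R c K1 g := mul_le_mul_of_nonneg_right k9 h2.le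
      linarith only [h3, g4, hs0]
    · have h2 : (2 * C + 1) * s ≤ C' * s := mul_le_mul_of_nonneg_right k3 hs0.le
      linarith only [h2, g5, hs0]
  · obtain ⟨g, g1, g2, g3, g4, g5, g6⟩ := hBG (2 * D) (by linarith only [hpD]) h2D
    have hgd : 0 < dep A R c K1 g := by
      have h1 : 0 < C * dep A R c K1 g := by linarith only [g4, hD0]
      exact (mul_pos_iff_of_pos_left (by linarith only [hC])).1 h1
    rcases le_or_gt (A₀ * r) D with hc2 | hc2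
    · -- the zone
      obtain ⟨s', hs'⟩ : ∃ s', s' = max s (A₀ * r) := ⟨_, rfl⟩
      have e1 : s ≤ s' := by rw [hs']; exact le_max_left _ _
      have e2 : A₀ * r ≤ s' := by rw [hs']; exact le_max_right _ _
      have e3 : s' ≤ D := by rw [hs']; exact max_le hc1.le hc2
      have e4 : s' ≤ A₀ * s := by
        rw [hs']
        refine max_le ?_ ?_
        · nlinarith only [hA₀, hs0]
        · exact mul_le_mul_of_nonneg_left hs1 (by linarith only [hA₀])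
      have e5 : A₀ * s ≤ C' * s := mul_le_mul_of_nonneg_right k7 hs0.le
      have hz := hZ hD g1 g2 (by linarith only [g3]) g4 g6 hnear
        (by linarith only [hb1, hDD, hS1]) (by linarith only [hb2, hDD, hS1]) s'
        (by rw [← hr]; exact e2) e3
      rw [← hr] at hz
      refine ⟨dn zs.1 (s' - r), zs.2.1, ?_, ?_, ?_, ?_, hweak' _ hz⟩
      · rw [dep_dn, ← hr]
        show K2 * infDist zs.1.2.re A ≤ _
        linarith only [hz2, e1, hs1]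
      · rw [norm_dn_self, abs_of_nonneg (by linarith only [e1, hs1])]
        linarith only [e4, e5, hr0]
      · rw [dep_dn, ← hr]
        have h1 : s' ≤ C' * s' := by
          have : 0 < s' := by linarith only [e1, hs0]
          nlinarith only [this, hC'1]
        have h2 : r + (s' - r) = s' := by ring
        rw [h2]
        linarith only [h1, e1]
      · rw [dep_dn, ← hr]
        linarith only [e4, e5]
    · have hDs : D ≤ A₀ * s := by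
        have : A₀ * r ≤ A₀ * s := mul_le_mul_of_nonneg_left hs1 (by linarith only [hA₀])
        linarith only [this, hc2]
      refine ⟨g, g1, g2, ?_, ?_, ?_, hweak g g6⟩
      · have h1 := norm_tri g pb.1 zs.1
        rw [norm_sub_rev pb.1 zs.1] at h1
        have h2 : (2 * C + 1) * D ≤ (2 * C + 1) * (A₀ * s) :=
          mul_le_mul_of_nonneg_left hDs (by linarith only [hC])
        have h3 : ((2 * C + 1) * A₀) * s ≤ C' * s := mul_le_mul_of_nonneg_right k4 hs0.le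
        linarith only [h1, h2, h3, g3, hzp]
      · have h3 : C * dep A R c K1 g ≤ C' * dep A R c K1 g :=
          mul_le_mul_of_nonneg_right k9 hgd.le
        linarith only [h3, g4, hc1, hD0]
      · have h2 : (2 * C) * D ≤ (2 * C) * (A₀ * s) :=
          mul_le_mul_of_nonneg_left hDs (by linarith only [hC])
        have h3 : (2 * C * A₀) * s ≤ C' * s := mul_le_mul_of_nonneg_right k5 hs0.le
        linarith only [h2, h3, g5]

end Vale.Agent.P097.H82.Sel
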