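import Vale.Agent.P097.H82.Sel.Vert

/-!
# P097 / case [c] / (A5) block T, row SEL / ANC: good windows near all ancestors of the pick

`pb` = base window, `zs` = near maximiser.  Good non R2 windows around the base at all scales give
good non R2 windows around the pick at all scales: directly above the distance `D` of base and
pick; below it by the decay (H) of the oscillation above the pick and the zone lemma.
-/

set_option linter.all false

open Complex Metric Filter Topology Set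
open Vale.Agent.P097.H315

namespace Vale.Agent.P097.H82.Sel

open Vale.Agent.P097.TC Vale.Agent.P097.A5

variable {Λ H : ℝ} {F q : ℂ → ℂ} {A : Set ℝ} {R c : ℝ → ℝ} {K1 T u₀ d rm : ℝ}
  {al p th : ℂ × ℂ → ℂ}

theorem NW.cont (W : NW Λ H F q A R c K1 T u₀ d rm al p th) :
    ContinuousOn (fun z => (al z, p z)) (ND A R c K1 u₀ d rm) :=
  W.dal.continuousOn.prodMk W.dp.continuousOn

theorem infDist_le_add {A : Set ℝ} (x y : ℝ) : infDist x A ≤ infDist y A + |x - y| := by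
  have := infDist_le_infDist_add_dist (s := A) (x := x) (y := y)
  rwa [Real.dist_eq] at this

theorem norm_tri (a b c : ℂ × ℂ) : ‖a - c‖ ≤ ‖a - b‖ + ‖b - c‖ := by
  have := norm_add_le (a - b) (b - c)
  rwa [sub_add_sub_cancel] at this

theorem norm_tri1 (a b c : ℂ) : ‖a - c‖ ≤ ‖a - b‖ + ‖b - c‖ := by
  have := norm_add_le (a - b) (b - c)
  rwa [sub_add_sub_cancel] at this

/-- choice of the ratio -/
theorem exists_A {M2 M6 C ρ₁ : ℝ} (h2 : 0 < M2) (h6 : 0 < M6) (hC : 1 ≤ C) (hρ : 0 < ρ₁) :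
    ∃ A₀ : ℝ, 1 ≤ A₀ ∧ M2 * C ^ 2 / A₀ ^ 2 < 1 ∧ M2 / A₀ ^ 2 < 1 ∧ M6 / A₀ ^ 2 < ρ₁ := by
  have hA₀ : (1 : ℝ) ≤ 1 + M6 / ρ₁ + M2 * C ^ 2 := by
    have : 0 < M6 / ρ₁ := by positivity
    have : 0 < M2 * C ^ 2 := by positivity
    linarith
  obtain ⟨A₀, hA⟩ : ∃ A₀, A₀ = 1 + M6 / ρ₁ + M2 * C ^ 2 := ⟨_, rfl⟩
  rw [← hA] at hA₀
  have hs : A₀ ≤ A₀ ^ 2 := by nlinarith only [hA₀]
  have a1 : 0 < M6 / ρ₁ := by positivity
  have a2 : 0 < M2 * C ^ 2 := by positivity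
  have h1 : M2 * C ^ 2 / A₀ ^ 2 < 1 := by
    rw [div_lt_one (by positivity)]
    linarith
  refine ⟨A₀, hA₀, h1, ?_, ?_⟩
  · refine lt_of_le_of_lt ?_ h1
    refine div_le_div_of_nonneg_right ?_ (by positivity)
    have : 1 ≤ C ^ 2 := by nlinarith only [hC]
    nlinarith only [this, h2]
  · rw [div_lt_iff₀ (by positivity)]
    have h1 : M6 / ρ₁ < A₀ ^ 2 := by linarith
    rw [div_lt_iff₀ hρ] at h1
    linarith

/-- windows at distance `≤ M4 * D` of the base are in the box, with the bound (H) -/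
theorem win_box (W : NW Λ H F q A R c K1 T u₀ d rm al p th) {K2 kap a : ℝ}
    (hkL : kap * (T + K1 + 1) ≤ 1 / 2) (ha : 0 < a) {pb zs : Zs A R c K1 K2 u₀ d rm}
    {D M4 M5 : ℝ} (hM5 : M5 = 1 + (T + K1 + 1) * M4) (hM40 : 0 < M4)
    (hD : D = ‖pb.1 - zs.1‖ + dep A R c K1 pb.1 + dep A R c K1 zs.1)
    (hnear : (win A R c K1 K2 u₀ d rm).Near a
        (fun z => Ez A R c K1 kap (fun z => (al z, p z)) z.1) pb zs)
    (hb1 : ‖pb.1.2 - u₀‖ + (2 * (M4 + M5)) * D < d) (hb2 : (2 * (M4 + M5)) * D < rm)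
    {x : ℂ × ℂ} (hx1 : x.2.im = 0) (hx2 : ‖x - pb.1‖ ≤ M4 * D) (hx3 : 0 < dep A R c K1 x)
    (hx4 : K2 * infDist x.2.re A ≤ dep A R c K1 x) :
    closedBall x (kap * dep A R c K1 x) ⊆ ND A R c K1 u₀ d rm ∧
      Ez A R c K1 kap (fun z => (al z, p z)) x ≤
        2 * (M4 + 1 + M5) ^ (a + 2) * (dep A R c K1 zs.1 / dep A R c K1 x) ^ 2 := by
  have hT0 := W.dg.T0
  have hK0 := W.dg.K0
  have hL1 : 1 ≤ T + K1 + 1 := by linarith only [hT0, hK0]
  have hr0 : 0 < dep A R c K1 zs.1 := zs.2.2.2.1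
  have hpb0 : 0 < dep A R c K1 pb.1 := pb.2.2.2.1
  have hDn := norm_nonneg (pb.1 - zs.1)
  have hD0 : 0 < D := by linarith only [hD, hr0, hpb0, hDn]
  have hpD : dep A R c K1 pb.1 ≤ D := by linarith only [hD, hr0, hpb0, hDn]
  have hM50 : 0 < M5 := by rw [hM5]; positivity
  have e1 := (abs_le.1 (W.dg.dep_lip x pb.1)).2
  have e2 : dep A R c K1 x ≤ M5 * D := by
    have h1 : (T + K1 + 1) * ‖x - pb.1‖ ≤ (T + K1 + 1) * (M4 * D) :=
      mul_le_mul_of_nonneg_left hx2 (by linarith only [hL1])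
    have e3 : M5 * D = D + (T + K1 + 1) * (M4 * D) := by rw [hM5]; ring
    linarith only [e1, h1, e3, hpD]
  have hM5D : 0 < M5 * D := by positivity
  have hM4D : 0 < M4 * D := by positivity
  have eC : (2 * (M4 + M5)) * D = 2 * (M4 * D) + 2 * (M5 * D) := by ring
  rw [eC] at hb1 hb2
  have e4 : ‖x.2 - pb.1.2‖ ≤ M4 * D := (norm_snd_le (x - pb.1)).trans hx2
  have e5 : ‖x.2 - u₀‖ ≤ M4 * D + ‖pb.1.2 - u₀‖ :=
    (norm_tri1 _ pb.1.2 _).trans (by linarith only [e4])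
  have hxZ : x ∈ Zs A R c K1 K2 u₀ d rm := by
    refine ⟨hx1, ?_, hx3, by linarith only [e2, hb2, hM5D, hM4D], hx4⟩
    have := re_le_norm x.2 u₀
    linarith only [this, e5, hb1, hM5D, hM4D]
  refine ⟨?_, ?_⟩
  · intro y hy
    rw [mem_closedBall, dist_eq_norm] at hy
    have f1 : (T + K1 + 1) * ‖y - x‖ ≤ dep A R c K1 x / 2 := by
      calc (T + K1 + 1) * ‖y - x‖ ≤ (T + K1 + 1) * (kap * dep A R c K1 x) :=
            mul_le_mul_of_nonneg_left hy (by linarith only [hL1])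
        _ = (kap * (T + K1 + 1)) * dep A R c K1 x := by ring
        _ ≤ 1 / 2 * dep A R c K1 x := mul_le_mul_of_nonneg_right hkL hx3.le
        _ = _ := by ring
    have f2 := abs_le.1 (W.dg.dep_lip y x)
    have f3 : ‖y - x‖ ≤ (T + K1 + 1) * ‖y - x‖ := by
      have := norm_nonneg (y - x)
      nlinarith only [this, hL1]
    have f4 : ‖y.2 - x.2‖ ≤ ‖y - x‖ := norm_snd_le (y - x)
    have f5 : ‖y.2 - u₀‖ ≤ ‖y.2 - x.2‖ + ‖x.2 - u₀‖ := norm_tri1 _ _ _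
    refine ⟨?_, ?_, ?_⟩
    · linarith only [f5, f4, f3, f1, e5, hb1, e2, hM5D, hM4D]
    · linarith only [f2.1, f1, hx3]
    · linarith only [f2.2, f1, hx3, e2, hb2, hM5D, hM4D]
  · have h1 := hnear.above ha (C := M4 + 1 + M5) (z' := ⟨x, hxZ⟩) (by
      rw [win_D, win_D, ← hD]
      show ‖pb.1 - x‖ + dep A R c K1 pb.1 + dep A R c K1 x ≤ (M4 + 1 + M5) * D
      rw [norm_sub_rev]
      have : (M4 + 1 + M5) * D = M4 * D + D + M5 * D := by ring
      rw [this]; linarith only [hx2, hpD, e2])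
    rw [win_ρ, win_ρ] at h1
    refine h1.trans ?_
    have h2 : Ez A R c K1 kap (fun z => (al z, p z)) zs.1 ≤ 1 := Ez_le_one _
    have hC3 : 0 < M4 + 1 + M5 := by linarith only [hM40, hM50]
    have hp0 : (0 : ℝ) < 2 * (M4 + 1 + M5) ^ (a + 2) := by positivity
    have h3 : 2 * (M4 + 1 + M5) ^ (a + 2) * Ez A R c K1 kap (fun z => (al z, p z)) zs.1 ≤
        2 * (M4 + 1 + M5) ^ (a + 2) := by
      have := mul_le_mul_of_nonneg_left h2 hp0.le
      linarith only [this]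
    exact mul_le_mul_of_nonneg_right h3 (sq_nonneg _)

/-- first segment: down from the good window `g` -/
theorem seg1 {K2 C D σ : ℝ} {g pb : ℂ × ℂ} (hσ0 : 0 ≤ σ) (hg1 : g.2.im = 0)
    (hg2 : K2 * infDist g.2.re A ≤ dep A R c K1 g) (hg3 : ‖g - pb‖ ≤ 2 * C * D) {δ : ℝ}
    (hδ : δ ≤ dep A R c K1 g) {x : ℂ × ℂ} (hx : x ∈ segment ℝ g (dn g σ)) :
    x.2.im = 0 ∧ ‖x - pb‖ ≤ σ + 2 * C * D ∧ δ ≤ dep A R c K1 x ∧
      K2 * infDist x.2.re A ≤ dep A R c K1 x := by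
  have hx' : x ∈ segment ℝ (dn g 0) (dn g σ) := by rwa [dn_zero]
  obtain ⟨τ, hτ, rfl⟩ := seg_vert hσ0 hx'
  refine ⟨hg1, ?_, ?_, ?_⟩
  · have h1 := norm_tri (dn g τ) g pb
    rw [norm_dn_self, abs_of_nonneg hτ.1] at h1
    linarith only [h1, hg3, hτ.2]
  · rw [dep_dn]; linarith only [hδ, hτ.1]
  · rw [dep_dn]; show K2 * infDist g.2.re A ≤ _; linarith only [hg2, hτ.1]

/-- second segment: across -/
theorem seg2 (h : DG A R c K1 T) {K2 C D σ : ℝ} (hK2 : 0 ≤ K2) (hC : 1 ≤ C) (hD0 : 0 < D)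
    {g pb zs : ℂ × ℂ} (hσ : σ = (T + K1 + 1) * ((2 * C + 1) * D) + 2 * K2 * C * D + 3 * D)
    (hg1 : g.2.im = 0) (hgd : 0 < dep A R c K1 g) (hg3 : ‖g - pb‖ ≤ 2 * C * D)
    (hz1 : zs.2.im = 0) (hzp : ‖zs - pb‖ ≤ D) (hpb : K2 * infDist pb.2.re A ≤ D) {x : ℂ × ℂ}
    (hx : x ∈ segment ℝ (dn g σ) (dn zs σ)) :
    x.2.im = 0 ∧ ‖x - pb‖ ≤ σ + 2 * C * D ∧ 2 * D ≤ dep A R c K1 x ∧
      K2 * infDist x.2.re A ≤ dep A R c K1 x := by
  have hT0 := h.T0
  have hK0 := h.K0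
  have hCD : D ≤ 2 * C * D := by nlinarith only [hC, hD0]
  have hK2C : 0 ≤ 2 * K2 * C * D := by positivity
  have hL2 : 0 ≤ (T + K1 + 1) * ((2 * C + 1) * D) := by positivity
  have hσ0 : 0 ≤ σ := by linarith only [hσ, hK2C, hL2, hD0]
  have h0 : x ∈ closedBall pb (σ + 2 * C * D) := by
    refine (convex_closedBall pb _).segment_subset ?_ ?_ hx
    · rw [mem_closedBall, dist_eq_norm]
      have h1 := norm_tri (dn g σ) g pb
      rw [norm_dn_self, abs_of_nonneg hσ0] at h1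
      linarith only [h1, hg3]
    · rw [mem_closedBall, dist_eq_norm]
      have h1 := norm_tri (dn zs σ) zs pb
      rw [norm_dn_self, abs_of_nonneg hσ0] at h1
      linarith only [h1, hzp, hCD]
  rw [mem_closedBall, dist_eq_norm] at h0
  have h1 : ‖x - dn g σ‖ ≤ (2 * C + 1) * D := by
    refine (norm_sub_le_of_mem_segment hx).trans ?_
    rw [dn_sub]
    have h2 := norm_tri zs pb g
    rw [norm_sub_rev pb g] at h2
    linarith only [h2, hzp, hg3]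
  have h2 := (abs_le.1 (h.dep_lip x (dn g σ))).1
  rw [dep_dn] at h2
  have h3 : (T + K1 + 1) * ‖x - dn g σ‖ ≤ (T + K1 + 1) * ((2 * C + 1) * D) :=
    mul_le_mul_of_nonneg_left h1 (by linarith only [hT0, hK0])
  have h5 : 2 * K2 * C * D + 3 * D ≤ dep A R c K1 x := by
    linarith only [h2, h3, hσ, hgd]
  obtain ⟨α, β, hα, hβ, hαβ, hxe⟩ := hx
  have h6 : x.2 = (α : ℂ) * g.2 + (β : ℂ) * zs.2 := by
    rw [← hxe]
    show (α : ℝ) • g.2 + (β : ℝ) • zs.2 = _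
    rw [Complex.real_smul, Complex.real_smul]
  refine ⟨?_, h0, by linarith only [h5, hK2C, hD0], ?_⟩
  · rw [h6]
    simp [hg1, hz1]
  · have h7 : ‖x.2 - pb.2‖ ≤ 2 * C * D := by
      have e : x.2 - pb.2 = (α : ℂ) * (g.2 - pb.2) + (β : ℂ) * (zs.2 - pb.2) := by
        rw [h6]
        have : (α : ℂ) + β = 1 := by exact_mod_cast hαβ
        linear_combination (pb.2) * this
      rw [e]
      have k1 : ‖g.2 - pb.2‖ ≤ 2 * C * D := (norm_snd_le (g - pb)).trans hg3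
      have k2 : ‖zs.2 - pb.2‖ ≤ 2 * C * D := ((norm_snd_le (zs - pb)).trans hzp).trans hCD
      calc ‖(α : ℂ) * (g.2 - pb.2) + (β : ℂ) * (zs.2 - pb.2)‖
          ≤ α * (2 * C * D) + β * (2 * C * D) := by
            refine (norm_add_le _ _).trans ?_
            rw [norm_mul, norm_mul, Complex.norm_real, Complex.norm_real,
              Real.norm_of_nonneg hα, Real.norm_of_nonneg hβ]
            exact add_le_add (mul_le_mul_of_nonneg_left k1 hα)
              (mul_le_mul_of_nonneg_left k2 hβ)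
        _ = (α + β) * (2 * C * D) := by ring
        _ = 2 * C * D := by rw [hαβ, one_mul]
    have h8 : |x.2.re - pb.2.re| ≤ 2 * C * D := by
      have := Complex.abs_re_le_norm (x.2 - pb.2)
      rw [Complex.sub_re] at this
      exact this.trans h7
    have h9 := infDist_le_add (A := A) x.2.re pb.2.re
    have h10 : K2 * infDist x.2.re A ≤ K2 * (infDist pb.2.re A + 2 * C * D) :=
      mul_le_mul_of_nonneg_left (h9.trans (by linarith only [h8])) hK2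
    have e : K2 * (infDist pb.2.re A + 2 * C * D) = K2 * infDist pb.2.re A + 2 * K2 * C * D := by
      ring
    rw [e] at h10
    linarith only [h10, hpb, h5, hD0]

/-- third segment: up over the pick -/
theorem seg3 {K2 D σ₀ σ : ℝ} {zs pb : ℂ × ℂ} (hσ₀ : 0 ≤ σ₀) (hz1 : zs.2.im = 0)
    (hz2 : K2 * infDist zs.2.re A ≤ dep A R c K1 zs) (hz3 : 0 < dep A R c K1 zs)
    (hzp : ‖zs - pb‖ ≤ D) {τ : ℝ} (hτ : τ ∈ Icc σ₀ σ) :
    (dn zs τ).2.im = 0 ∧ ‖dn zs τ - pb‖ ≤ σ + D ∧ 0 < dep A R c K1 (dn zs τ) ∧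
      K2 * infDist (dn zs τ).2.re A ≤ dep A R c K1 (dn zs τ) := by
  have h0 : 0 ≤ τ := hσ₀.trans hτ.1
  refine ⟨hz1, ?_, ?_, ?_⟩
  · have h1 := norm_tri (dn zs τ) zs pb
    rw [norm_dn_self, abs_of_nonneg h0] at h1
    linarith only [h1, hzp, hτ.2]
  · rw [dep_dn]; linarith only [h0, hz3]
  · rw [dep_dn]
    show K2 * infDist zs.2.re A ≤ _
    linarith only [hz2, h0]

/-- segments at depth `≥ 2 * D / C` -/
theorem osc_piece {kap : ℝ} {L : ℂ × ℂ → ℂ × ℂ} {D C A₀ M2 ℓ r : ℝ} (hk : 0 < kap) (hD : 0 < D)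
    (hC : 1 ≤ C) (hA₀ : 0 < A₀) (hM2 : 0 < M2) (h1 : M2 * C ^ 2 / A₀ ^ 2 < 1) (hr : 0 < r)
    (hrD : A₀ * r ≤ D) {z z' : ℂ × ℂ} (hl : ‖z' - z‖ ≤ ℓ * D)
    (hg : ∀ x ∈ segment ℝ z z', 2 * D / C ≤ dep A R c K1 x ∧
      ContinuousOn L (closedBall x (kap * dep A R c K1 x)) ∧
      Ez A R c K1 kap L x ≤ M2 * (r / dep A R c K1 x) ^ 2) {x : ℂ × ℂ}
    (hx : x ∈ segment ℝ z z') :
    ‖L x - L z‖ ≤ (ℓ * C / (2 * kap) + 1) * (M2 * C ^ 2 / A₀ ^ 2) := by
  have hC0 : 0 < C := by linarith only [hC]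
  have hδ0 : 0 < 2 * D / C := by positivity
  have he0 : 0 ≤ M2 * C ^ 2 / A₀ ^ 2 := by positivity
  have hE : ∀ x ∈ segment ℝ z z', Ez A R c K1 kap L x ≤ M2 * C ^ 2 / A₀ ^ 2 := by
    intro x hx
    obtain ⟨b1, b2, b3⟩ := hg x hx
    refine b3.trans ?_
    have hdx : 0 < dep A R c K1 x := hδ0.trans_le b1
    have h3 : D ≤ C * dep A R c K1 x := by
      rw [div_le_iff₀ hC0] at b1; linarith only [b1, hD]
    have h4 : r / dep A R c K1 x ≤ C / A₀ := by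
      rw [div_le_div_iff₀ hdx hA₀]
      linarith only [h3, hrD]
    have h5 : 0 ≤ r / dep A R c K1 x := div_nonneg hr.le hdx.le
    calc M2 * (r / dep A R c K1 x) ^ 2 ≤ M2 * (C / A₀) ^ 2 := by gcongr
      _ = M2 * C ^ 2 / A₀ ^ 2 := by rw [div_pow]; ring
  have hsub : segment ℝ z x ⊆ segment ℝ z z' :=
    (convex_segment _ _).segment_subset (left_mem_segment ℝ _ _) hx
  have h2 := seg_osc (A := A) (R := R) (c := c) (K1 := K1) (L := L) hδ0 hk he0 h1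
    (fun y hy => (hg y (hsub hy)).1) (fun y hy => (hg y (hsub hy)).2.1)
    (fun y hy => hE y (hsub hy))
  refine h2.trans (mul_le_mul_of_nonneg_right ?_ he0)
  have h3 : ‖x - z‖ ≤ ℓ * D := (norm_sub_le_of_mem_segment hx).trans hl
  have h4 : ‖x - z‖ / (kap * (2 * D / C)) ≤ ℓ * C / (2 * kap) := by
    rw [div_le_div_iff₀ (by positivity) (by positivity)]
    have : ℓ * C * (kap * (2 * D / C)) = (ℓ * D) * (2 * kap) := by field_simp
    rw [this]
    exact mul_le_mul_of_nonneg_right h3 (by positivity)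
  linarith only [h4]

end Vale.Agent.P097.H82.Sel
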