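import Vale.Agent.P097.H82.Sel.Dep
import Vale.Agent.P097.H394.Zone
import Vale.Agent.P097.TC.Defs5

/-!
# P097 / case [c] / (A5) block T, row SEL: vertical chains, periodic form of the zone lemma,
native world
-/

set_option linter.all false

open Complex Metric Filter Topology Set
open Vale.Agent.P097.H315

namespace Vale.Agent.P097.H82.Sel

open Vale.Agent.P097.TC Vale.Agent.P097.A5

/-- native box -/
def ND (A : Set ℝ) (R c : ℝ → ℝ) (K1 u₀ d rm : ℝ) : Set (ℂ × ℂ) :=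
  {z | ‖z.2 - u₀‖ < d ∧ 0 < dep A R c K1 z ∧ dep A R c K1 z < rm}

/-- native world -/
structure NW (Λ H : ℝ) (F q : ℂ → ℂ) (A : Set ℝ) (R c : ℝ → ℝ) (K1 T u₀ d rm : ℝ)
    (al p th : ℂ × ℂ → ℂ) : Prop where
  crv : Crv Λ H F q
  dg : DG A R c K1 T
  dal : DifferentiableOn ℂ al (ND A R c K1 u₀ d rm)
  dp : DifferentiableOn ℂ p (ND A R c K1 u₀ d rm)
  dth : DifferentiableOn ℂ th (ND A R c K1 u₀ d rm)
  mem : ∀ z ∈ ND A R c K1 u₀ d rm, th z ∈ Sb H
  inc : ∀ z ∈ ND A R c K1 u₀ d rm, Mi F q (al z) (p z) (th z) = 0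
  smp : ∀ z ∈ ND A R c K1 u₀ d rm, deriv (Mi F q (al z) (p z)) (th z) ≠ 0

/-- good point -/
def Gd (H : ℝ) (al p th : ℂ × ℂ → ℂ) (C c₁ : ℝ) (z : ℂ × ℂ) : Prop :=
  |(th z).im| ≤ (1 - c₁) * H ∧ |(al z).im| ≤ C ∧ ‖p z‖ ≤ C

/-- good point, not R2 -/
def Gf (H : ℝ) (F : ℂ → ℂ) (al p th : ℂ × ℂ → ℂ) (C c₁ : ℝ) (z : ℂ × ℂ) : Prop :=
  Gd H al p th C c₁ z ∧ c₁ ≤ ‖deriv F (th z)‖

/-- good non R2 windows around `x` at all scales between `s₀` and `S` -/
def BG (H : ℝ) (F : ℂ → ℂ) (A : Set ℝ) (R c : ℝ → ℝ) (K1 K2 : ℝ) (al p th : ℂ × ℂ → ℂ)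
    (C c₁ s₀ S : ℝ) (x : ℂ × ℂ) : Prop :=
  ∀ s : ℝ, s₀ ≤ s → s ≤ S → ∃ g : ℂ × ℂ, g.2.im = 0 ∧ K2 * infDist g.2.re A ≤ dep A R c K1 g ∧
    ‖g - x‖ ≤ C * s ∧ s ≤ C * dep A R c K1 g ∧ dep A R c K1 g ≤ C * s ∧ Gf H F al p th C c₁ g

variable {A : Set ℝ} {R c : ℝ → ℝ} {K1 T : ℝ}

/-! ### verticals -/

/-- moving down -/
noncomputable def dn (z : ℂ × ℂ) (s : ℝ) : ℂ × ℂ := (z.1 - (s : ℂ) * I, z.2)

@[simp] theorem dn_snd (z : ℂ × ℂ) (s : ℝ) : (dn z s).2 = z.2 := rfl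

theorem dep_dn (z : ℂ × ℂ) (s : ℝ) : dep A R c K1 (dn z s) = dep A R c K1 z + s := dep_down z s

@[simp] theorem dn_zero (z : ℂ × ℂ) : dn z 0 = z := by
  simp [dn]

theorem dn_dn (z : ℂ × ℂ) (s s' : ℝ) : dn (dn z s) s' = dn z (s + s') := by
  unfold dn
  ext
  · push_cast; ring
  · rfl

theorem dn_sub (z z' : ℂ × ℂ) (s : ℝ) : dn z s - dn z' s = z - z' := by
  unfold dn
  ext
  · show z.1 - s * I - (z'.1 - s * I) = z.1 - z'.1
    ring
  · rfl

theorem norm_dn_sub (z : ℂ × ℂ) (s s' : ℝ) : ‖dn z s - dn z s'‖ = |s - s'| := by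
  have h : dn z s - dn z s' = (-(((s - s' : ℝ) : ℂ) * I), 0) := by
    unfold dn
    ext
    · show z.1 - s * I - (z.1 - s' * I) = _
      push_cast; ring
    · show z.2 - z.2 = 0
      ring
  rw [h, Prod.norm_def]
  simp only [norm_neg, norm_mul, Complex.norm_real, Complex.norm_I, mul_one, norm_zero,
    Real.norm_eq_abs]
  exact max_eq_left (abs_nonneg _)

theorem norm_dn_self (z : ℂ × ℂ) (s : ℝ) : ‖dn z s - z‖ = |s| := by
  have := norm_dn_sub z s 0
  simpa using this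

theorem seg_vert {z : ℂ × ℂ} {s s' : ℝ} (h : s ≤ s') {x : ℂ × ℂ}
    (hx : x ∈ segment ℝ (dn z s) (dn z s')) : ∃ τ ∈ Icc s s', x = dn z τ := by
  obtain ⟨a, b, ha, hb, hab, rfl⟩ := hx
  have hb' : a * s + b * s' = s + b * (s' - s) := by
    have : a = 1 - b := by linarith
    rw [this]; ring
  have ha' : a * s + b * s' = s' - a * (s' - s) := by
    have : b = 1 - a := by linarith
    rw [this]; ring
  have h3 : 0 ≤ b * (s' - s) := mul_nonneg hb (by linarith)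
  have h4 : 0 ≤ a * (s' - s) := mul_nonneg ha (by linarith)
  refine ⟨a * s + b * s', ⟨by linarith, by linarith⟩, ?_⟩
  have h2 : (a : ℂ) + b = 1 := by exact_mod_cast hab
  unfold dn
  ext
  · show (a : ℝ) • (z.1 - s * I) + (b : ℝ) • (z.1 - s' * I) = _
    rw [Complex.real_smul, Complex.real_smul]
    push_cast
    linear_combination z.1 * h2
  · show (a : ℝ) • z.2 + (b : ℝ) • z.2 = z.2
    rw [Complex.real_smul, Complex.real_smul]
    linear_combination z.2 * h2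

variable {kap : ℝ} {L : ℂ × ℂ → ℂ × ℂ}

/-- **oscillation along a vertical with quadratic decay upwards** -/
theorem vert_osc (hk : 0 < kap) {z : ℂ × ℂ} {r M : ℝ} (hM : 0 ≤ M) :
    ∀ (n : ℕ) {σ₀ σ₁ : ℝ}, σ₀ ≤ σ₁ → 0 < dep A R c K1 z + σ₀ →
      dep A R c K1 z + σ₁ ≤ 2 ^ n * (dep A R c K1 z + σ₀) →
      (∀ τ ∈ Icc σ₀ σ₁, ContinuousOn L (closedBall (dn z τ) (kap * dep A R c K1 (dn z τ)))) →
      (∀ τ ∈ Icc σ₀ σ₁, Ez A R c K1 kap L (dn z τ) ≤ M * (r / (dep A R c K1 z + τ)) ^ 2) →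
      M * (r / (dep A R c K1 z + σ₀)) ^ 2 < 1 →
      ‖L (dn z σ₁) - L (dn z σ₀)‖ ≤
        2 * (1 / kap + 1) * (M * (r / (dep A R c K1 z + σ₀)) ^ 2) := by
  intro n
  induction n with
  | zero =>
    intro σ₀ σ₁ h01 h0 h1 _ _ _
    rw [pow_zero, one_mul] at h1
    have : σ₁ = σ₀ := by linarith
    rw [this, sub_self, norm_zero]
    positivity
  | succ n ih =>
    intro σ₀ σ₁ h01 h0 h1 hL hE hs
    set δ := dep A R c K1 z with hδ
    set s : ℝ := M * (r / (δ + σ₀)) ^ 2 with hsd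
    have hs0 : 0 ≤ s := by positivity
    -- one step
    have step : ∀ {σ : ℝ}, σ₀ ≤ σ → σ ≤ σ₁ → σ - σ₀ ≤ δ + σ₀ →
        ‖L (dn z σ) - L (dn z σ₀)‖ ≤ (1 / kap + 1) * s := by
      intro σ a1 a2 a3
      have hseg : ∀ x ∈ segment ℝ (dn z σ₀) (dn z σ), ∃ τ ∈ Icc σ₀ σ₁, x = dn z τ := by
        intro x hx
        obtain ⟨τ, hτ, h⟩ := seg_vert a1 hx
        exact ⟨τ, ⟨hτ.1, hτ.2.trans a2⟩, h⟩
      have h2 := seg_osc (A := A) (R := R) (c := c) (K1 := K1) (L := L) (z := dn z σ₀)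
        (z' := dn z σ) h0 hk hs0 hs ?_ ?_ ?_
      · refine h2.trans (mul_le_mul_of_nonneg_right ?_ hs0)
        rw [norm_dn_sub, abs_of_nonneg (by linarith)]
        have h3 : (σ - σ₀) / (kap * (δ + σ₀)) ≤ 1 / kap := by
          rw [div_le_div_iff₀ (by positivity) hk]
          nlinarith
        linarith
      · intro x hx
        obtain ⟨τ, hτ, rfl⟩ := hseg x hx
        rw [dep_dn]
        linarith [hτ.1]
      · intro x hx
        obtain ⟨τ, hτ, rfl⟩ := hseg x hx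
        exact hL τ hτ
      · intro x hx
        obtain ⟨τ, hτ, rfl⟩ := hseg x hx
        refine (hE τ hτ).trans ?_
        rw [hsd]
        refine mul_le_mul_of_nonneg_left ?_ hM
        rw [div_pow, div_pow]
        refine div_le_div_of_nonneg_left (sq_nonneg r) (by positivity) ?_
        exact pow_le_pow_left₀ h0.le (by linarith [hτ.1]) 2
    rcases le_or_gt (σ₁ - σ₀) (δ + σ₀) with hc | hc
    · refine (step h01 le_rfl hc).trans ?_
      have : 0 ≤ (1 / kap + 1) * s := by positivity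
      linarith
    · set σm : ℝ := σ₀ + (δ + σ₀) with hσm
      have e1 : δ + σm = 2 * (δ + σ₀) := by rw [hσm]; ring
      have h3 := step (σ := σm) (by linarith) (by linarith) (by linarith)
      have h4 := ih (σ₀ := σm) (σ₁ := σ₁) (by linarith) (by linarith) (by
        rw [e1]
        rw [pow_succ] at h1
        linarith) (fun τ hτ => hL τ ⟨by linarith [hτ.1], hτ.2⟩)
        (fun τ hτ => hE τ ⟨by linarith [hτ.1], hτ.2⟩)
      have e2 : M * (r / (δ + σm)) ^ 2 = s / 4 := by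
        rw [e1, hsd]
        have : δ + σ₀ ≠ 0 := h0.ne'
        field_simp
        ring
      rw [e2] at h4
      have h5 := h4 (by linarith)
      calc ‖L (dn z σ₁) - L (dn z σ₀)‖
          = ‖(L (dn z σ₁) - L (dn z σm)) + (L (dn z σm) - L (dn z σ₀))‖ := by congr 1; abel
        _ ≤ 2 * (1 / kap + 1) * (s / 4) + (1 / kap + 1) * s :=
            (norm_add_le _ _).trans (add_le_add h5 h3)
        _ ≤ 2 * (1 / kap + 1) * s := by
            have : 0 ≤ (1 / kap + 1) * s := by positivity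
            linarith

/-! ### periodicity -/

section
variable {Λ H : ℝ} {F q : ℂ → ℂ}

theorem Sb_add_real {x : ℂ} (n : ℝ) (hx : x ∈ Sb H) : x + (n : ℂ) ∈ Sb H := by
  simp only [Sb, mem_setOf_eq] at hx ⊢
  simpa using hx

theorem F_nat (crv : Crv Λ H F q) (n : ℕ) : ∀ x ∈ Sb H, F (x + n) = F x + 2 * Real.pi * n ∧
    q (x + n) = q x := by
  induction n with
  | zero => intro x _; simp
  | succ n ih =>
    intro x hx
    obtain ⟨h1, h2⟩ := ih x hx
    have h3 : x + (n : ℂ) ∈ Sb H := by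
      have := Sb_add_real (n : ℝ) hx
      simpa using this
    have e : x + ((n + 1 : ℕ) : ℂ) = (x + n) + 1 := by push_cast; ring
    rw [e, crv.Fp _ h3, crv.qp _ h3, h1, h2]
    refine ⟨?_, rfl⟩
    push_cast; ring

theorem F_int (crv : Crv Λ H F q) (n : ℤ) {x : ℂ} (hx : x ∈ Sb H) :
    F (x + n) = F x + 2 * Real.pi * n ∧ q (x + n) = q x := by
  obtain ⟨m, rfl | rfl⟩ := n.eq_nat_or_neg
  · have := F_nat crv m x hx
    simpa using this
  · have h3 : x + ((-(m : ℤ) : ℤ) : ℂ) ∈ Sb H := by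
      have := Sb_add_real (-(m : ℝ)) hx
      simpa using this
    obtain ⟨h1, h2⟩ := F_nat crv m _ h3
    have e : x + ((-(m : ℤ) : ℤ) : ℂ) + (m : ℂ) = x := by push_cast; ring
    rw [e] at h1 h2
    refine ⟨?_, h2.symm⟩
    rw [h1]
    push_cast; ring

theorem dF_int (crv : Crv Λ H F q) (n : ℤ) {x : ℂ} (hx : x ∈ Sb H) :
    deriv F (x + n) = deriv F x ∧ deriv q (x + n) = deriv q x := by
  have hev : ∀ᶠ y in 𝓝 x, y ∈ Sb H := (H394.isOpen_Sb H).mem_nhds hx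
  constructor
  · have h1 : (fun y => F (y + n)) =ᶠ[𝓝 x] fun y => F y + 2 * Real.pi * n :=
      hev.mono fun y hy => (F_int crv n hy).1
    have h2 := h1.deriv_eq
    rw [deriv_comp_add_const, deriv_add_const] at h2
    exact h2
  · have h1 : (fun y => q (y + n)) =ᶠ[𝓝 x] fun y => q y :=
      hev.mono fun y hy => (F_int crv n hy).2
    have h2 := h1.deriv_eq
    rw [deriv_comp_add_const] at h2
    exact h2

theorem Mi_int (crv : Crv Λ H F q) (n : ℤ) {x : ℂ} (hx : x ∈ Sb H) (a p : ℂ) :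
    Mi F q (a + 2 * Real.pi * n) p (x + n) = Mi F q a p x := by
  obtain ⟨h1, h2⟩ := F_int crv n hx
  obtain ⟨h3, h4⟩ := dF_int crv n hx
  have e : a + 2 * Real.pi * n - (F x + 2 * Real.pi * n) = a - F x := by ring
  unfold Mi
  rw [h1, h2, h3, h4, e]

/-- **periodic zone lemma** -/
theorem zoneP (crv : Crv Λ H F q) {c₁ : ℝ} (hc : 0 < c₁) (C : ℝ) : ∃ ρ₀ > 0,
    ∀ {X : Type*} [TopologicalSpace X] {S : Set X} {a p x : X → ℂ} {z₀ : X},
      IsPreconnected S → z₀ ∈ S → ContinuousOn x S → |(x z₀).im| ≤ (1 - c₁) * H →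
      c₁ ≤ ‖deriv F (x z₀)‖ → |(a z₀).im| ≤ C →
      (∀ z ∈ S, ‖a z - a z₀‖ < ρ₀ ∧ ‖p z - p z₀‖ < ρ₀ ∧ x z ∈ Sb H ∧
        Mi F q (a z) (p z) (x z) = 0) →
      ∀ z ∈ S, |(x z).im| ≤ (1 - c₁ / 2) * H ∧ c₁ / 2 ≤ ‖deriv F (x z)‖ := by
  have hH : 0 < H := crv.cv.b0
  set K : Set ℂ := (Icc 0 1) ×ℂ (Icc (-((1 - c₁) * H)) ((1 - c₁) * H)) with hK
  have cK : IsCompact K := isCompact_Icc.reProdIm isCompact_Icc
  set K' : Set ℂ := (Icc (-1) 2) ×ℂ (Icc (-((1 - c₁ / 2) * H)) ((1 - c₁ / 2) * H)) with hK'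
  have cK' : IsCompact K' := isCompact_Icc.reProdIm isCompact_Icc
  have hKb' : K' ⊆ Sb H := by
    intro x hx
    rw [hK', Complex.mem_reProdIm] at hx
    show |x.im| < H
    have := abs_le.2 hx.2
    nlinarith
  have hKb : K ⊆ Sb H := by
    intro x hx
    rw [hK, Complex.mem_reProdIm] at hx
    show |x.im| < H
    have := abs_le.2 hx.2
    nlinarith
  have hdF : ContinuousOn (deriv F) K' :=
    (H394.ddiff crv.cv.dF).continuousOn.mono hKb'
  obtain ⟨η, hη, hη'⟩ := Metric.uniformContinuousOn_iff.1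
    (cK'.uniformContinuousOn_of_continuous hdF) (c₁ / 2) (by positivity)
  set η₁ : ℝ := min η (min 1 (c₁ / 2 * H)) with hη₁
  have hη₁0 : 0 < η₁ := lt_min hη (lt_min one_pos (by positivity))
  obtain ⟨ρ₀, hρ, hz⟩ := H394.zone crv.cv cK hKb C hη₁0
  refine ⟨ρ₀, hρ, ?_⟩
  intro X _ S a p x z₀ hS hz₀ hx h1 h2 h3 hall z hz'
  set N : ℤ := -⌊(x z₀).re⌋ with hN
  have hxS : ∀ z ∈ S, x z ∈ Sb H := fun z hz => (hall z hz).2.2.1
  have hx0 : x z₀ + N ∈ K := by
    rw [hK, Complex.mem_reProdIm]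
    constructor
    · have e : (x z₀ + (N : ℂ)).re = (x z₀).re - ⌊(x z₀).re⌋ := by
        rw [hN, Complex.add_re, Complex.intCast_re]; push_cast; ring
      rw [e]
      exact ⟨by linarith [Int.floor_le (x z₀).re], by linarith [Int.lt_floor_add_one (x z₀).re]⟩
    · have e : (x z₀ + (N : ℂ)).im = (x z₀).im := by simp
      rw [e]
      exact abs_le.1 h1
  have key := hz (X := X) (T := S) (a := fun z => a z + 2 * Real.pi * N) (p := p)
    (x := fun z => x z + N) (z₀ := z₀) hS hz₀ (hx.add continuousOn_const) hx0 (by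
      have e : (a z₀ + 2 * Real.pi * (N : ℂ)).im = (a z₀).im := by simp
      show |(a z₀ + 2 * Real.pi * (N : ℂ)).im| ≤ C
      rw [e]; exact h3) (fun z hz => by
      obtain ⟨b1, b2, b3, b4⟩ := hall z hz
      refine ⟨?_, b2, ?_, ?_⟩
      · simp only [add_sub_add_right_eq_sub]; exact b1
      · have := Sb_add_real (N : ℝ) b3
        simpa using this
      · show Mi F q (a z + 2 * Real.pi * N) (p z) (x z + N) = 0
        rw [Mi_int crv N b3]; exact b4) z hz'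
  simp only [add_sub_add_right_eq_sub] at key
  have k1 : ‖x z - x z₀‖ < η := key.trans_le (min_le_left _ _)
  have k2 : ‖x z - x z₀‖ < 1 := key.trans_le ((min_le_right _ _).trans (min_le_left _ _))
  have k3 : ‖x z - x z₀‖ < c₁ / 2 * H :=
    key.trans_le ((min_le_right _ _).trans (min_le_right _ _))
  have him : |(x z).im| ≤ (1 - c₁ / 2) * H := by
    have e1 := Complex.abs_im_le_norm (x z - x z₀)
    rw [Complex.sub_im] at e1
    have e2 := abs_sub_abs_le_abs_sub (x z).im (x z₀).im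
    have e3 : (1 - c₁ / 2) * H = (1 - c₁) * H + c₁ / 2 * H := by ring
    rw [e3]
    linarith
  refine ⟨him, ?_⟩
  have m1 : x z₀ + N ∈ K' := by
    rw [hK, Complex.mem_reProdIm] at hx0
    rw [hK', Complex.mem_reProdIm]
    refine ⟨⟨by linarith [hx0.1.1], by linarith [hx0.1.2]⟩, ?_, ?_⟩
    · have := hx0.2.1; nlinarith
    · have := hx0.2.2; nlinarith
  have m2 : x z + N ∈ K' := by
    rw [hK, Complex.mem_reProdIm] at hx0
    rw [hK', Complex.mem_reProdIm]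
    have e1 := abs_le.1 ((Complex.abs_re_le_norm (x z - x z₀)).trans k2.le)
    rw [Complex.sub_re] at e1
    have e4 : (x z + (N : ℂ)).re = (x z₀ + (N : ℂ)).re + ((x z).re - (x z₀).re) := by
      simp
      ring
    have e5 : (x z + (N : ℂ)).im = (x z).im := by simp
    refine ⟨⟨?_, ?_⟩, ?_⟩
    · rw [e4]; linarith [hx0.1.1, e1.1]
    · rw [e4]; linarith [hx0.1.2, e1.2]
    · rw [e5]; exact abs_le.1 him
  have k4 := hη' _ m2 _ m1 (by
    rw [dist_eq_norm, add_sub_add_right_eq_sub]; exact k1)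
  rw [(dF_int crv N (hxS z hz')).1, (dF_int crv N (hxS z₀ hz₀)).1, dist_eq_norm] at k4
  have k5 := norm_sub_norm_le (deriv F (x z₀)) (deriv F (x z))
  rw [norm_sub_rev] at k5
  linarith

end

end Vale.Agent.P097.H82.Sel
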